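import Mathlib
import Vale.Agent.P043.Defs
import Vale.Agent.P043.Three
import Vale.Agent.P043.Euclid

namespace Vale.Agent.Results.P043.A_dim3

open MeasureTheory Vale.Agent.P043

theorem result (d : ℕ) (hd : 3 ≤ d) :
    (∃ F : Finset (Fin d → ℤ), F.Nonempty ∧ (∃ A, IsTiling A F) ∧
      ∀ A, IsTiling A F → ¬ IsPeriodic A) ∧
    (∃ Ω : Set (Fin d → ℝ), Bornology.IsBounded Ω ∧ MeasurableSet Ω ∧ 0 < volume Ω ∧
      (∃ A, IsRealTiling A Ω) ∧ ∀ A, IsRealTiling A Ω → ¬ IsRealPeriodic A) := by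
  obtain ⟨F, h1, ⟨A, h2⟩, h3⟩ := one_tile (by omega) (aper_int3 d hd)
  obtain ⟨h4, h5, h6⟩ := solid_props h1
  exact ⟨⟨F, h1, ⟨A, h2⟩, fun B hB hp => h3 _ (real_of_int hB) (periodic_of_int hp)⟩,
    solid F, h4, h5, h6, ⟨_, real_of_int h2⟩, h3⟩

end Vale.Agent.Results.P043.A_dim3
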